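import Vale.Agent.P063.Main

namespace Vale.Agent.Results.P063.A_width

open Vale.Agent.P063

/-- The Friedgut-Kalai threshold-width conjecture for `r`-uniform hypergraph properties,
all `r ≥ 2` (graphs: `r = 2`). -/
theorem result :
    ∀ r : ℕ, 2 ≤ r → ∀ n : ℕ, r ≤ n → ∀ P : Set (Edge n r → Bool),
      IsProperty P → IsIncreasing P → P.Nonempty → P ≠ Set.univ →
      ∀ ε : ℝ, 0 < ε → ε < 1 / 2 →
        width P ε ≤ 2048 * (r : ℝ) ^ 2 * Real.log (1 / (2 * ε))
          * Real.log (n : ℝ) ^ (-((r : ℝ) / ((r : ℝ) - 1))) :=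
  fun _ hr _ hn _ hP hI hne hu ε h0 h1 => width_le hr hn hP hI hne hu ε h0 h1

end Vale.Agent.Results.P063.A_width
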